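import Mathlib

/-!
# P091 / Carleson: the double (mass, energy) decomposition, abstract L2 form  (helper645)

No function `energy of a set`: only predicates `En Q e`, `Ms Q m`.
-/

namespace Vale.Agent.P091.CH.H645

open Finset

/-- `Q` is covered by finitely many trees of total length at most `b` -/
def Cov {α : Type*} (Tree : Finset α → ℝ → Prop) (Q : Finset α) (b : ℝ) : Prop :=
  ∃ (ι : Finset ℕ) (T : ℕ → Finset α) (l : ℕ → ℝ), (∀ i ∈ ι, Tree (T i) (l i)) ∧
    (∀ s ∈ Q, ∃ i ∈ ι, s ∈ T i) ∧ ∑ i ∈ ι, l i ≤ b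

theorem Cov.sub {α : Type*} {Tree : Finset α → ℝ → Prop} {Q Q' : Finset α} {b : ℝ}
    (h : Cov Tree Q b) (hQ : Q' ⊆ Q) : Cov Tree Q' b := by
  obtain ⟨ι, T, l, h1, h2, h3⟩ := h
  exact ⟨ι, T, l, h1, fun s hs => h2 s (hQ hs), h3⟩

/-- the abstract data of the decomposition -/
structure Dat {α : Type*} [DecidableEq α] (Tree En Ms : Finset α → ℝ → Prop) (a : α → ℝ)
    (A B K : ℝ) : Prop where
  K0 : 0 ≤ K
  A0 : 0 ≤ A
  B0 : 0 ≤ B
  a0 : ∀ s, 0 ≤ a s
  en_mono : ∀ Q Q' e, Q' ⊆ Q → En Q e → En Q' e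
  ms_mono : ∀ Q Q' m, Q' ⊆ Q → Ms Q m → Ms Q' m
  tree_sub : ∀ T T' l, Tree T l → T' ⊆ T → Tree T' l
  tree_nonneg : ∀ T l, Tree T l → 0 ≤ l
  tree_single : ∀ s, ∃ l, Tree {s} l
  tree : ∀ T l e m, 0 ≤ e → 0 ≤ m → Tree T l → En T e → Ms T m → ∑ s ∈ T, a s ≤ K * e * m * l
  dec_ms : ∀ Q m, 0 < m → Ms Q m →
    ∃ L, L ⊆ Q ∧ Ms L (m / 4) ∧ ∃ b, b * m ≤ A ∧ Cov Tree (Q \ L) b
  dec_en : ∀ Q e, 0 < e → En Q e →
    ∃ L, L ⊆ Q ∧ En L (e / 2) ∧ ∃ b, b * e ^ 2 ≤ B ∧ Cov Tree (Q \ L) b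

variable {α : Type*} [DecidableEq α] {Tree En Ms : Finset α → ℝ → Prop} {a : α → ℝ}
  {A B K : ℝ}

theorem Dat.basic (S : Dat Tree En Ms a A B K) {Q : Finset α} {e m b : ℝ} (he0 : 0 ≤ e)
    (hm0 : 0 ≤ m) (he : En Q e) (hm : Ms Q m) (hf : Cov Tree Q b) :
    ∑ s ∈ Q, a s ≤ K * e * m * b := by
  obtain ⟨ι, T, l, h1, h2, h3⟩ := hf
  have h4 : ∑ s ∈ Q, a s ≤ ∑ i ∈ ι, ∑ s ∈ T i ∩ Q, a s := by
    have h5 : ∀ s ∈ Q, a s ≤ ∑ i ∈ ι, if s ∈ T i then a s else 0 := by
      intro s hs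
      obtain ⟨i, hi, his⟩ := h2 s hs
      have h6 := single_le_sum (f := fun i => if s ∈ T i then a s else 0)
        (fun i _ => by
          show (0 : ℝ) ≤ if s ∈ T i then a s else 0
          split_ifs
          · exact S.a0 s
          · exact le_rfl) hi
      simpa [his] using h6
    calc ∑ s ∈ Q, a s ≤ ∑ s ∈ Q, ∑ i ∈ ι, (if s ∈ T i then a s else 0) := sum_le_sum h5
      _ = ∑ i ∈ ι, ∑ s ∈ Q, (if s ∈ T i then a s else 0) := sum_comm
      _ = ∑ i ∈ ι, ∑ s ∈ T i ∩ Q, a s := by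
          refine sum_congr rfl fun i _ => ?_
          rw [← sum_filter, inter_comm, filter_mem_eq_inter]
  refine h4.trans ?_
  have h6 : ∀ i ∈ ι, ∑ s ∈ T i ∩ Q, a s ≤ K * e * m * l i := by
    intro i hi
    exact S.tree _ _ _ _ he0 hm0 (S.tree_sub _ _ _ (h1 i hi) inter_subset_left)
      (S.en_mono _ _ _ inter_subset_right he) (S.ms_mono _ _ _ inter_subset_right hm)
  calc ∑ i ∈ ι, ∑ s ∈ T i ∩ Q, a s ≤ ∑ i ∈ ι, K * e * m * l i := sum_le_sum h6
    _ = K * e * m * ∑ i ∈ ι, l i := (mul_sum _ _ _).symm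
    _ ≤ K * e * m * b := mul_le_mul_of_nonneg_left h3
        (mul_nonneg (mul_nonneg S.K0 he0) hm0)

/-- the energy decomposition of a set of mass `≤ m` covered by trees of total length `≤ A / m` -/
theorem Dat.en_chain (S : Dat Tree En Ms a A B K) {m b : ℝ} (hm0 : 0 ≤ m) (hb : b * m ≤ A) :
    ∀ (M : ℕ) (Q : Finset α) (e : ℝ), 0 < e → En Q e → Ms Q m → Cov Tree Q b →
      ∑ s ∈ Q, a s ≤ K * (∑ j ∈ range M, min ((A * e) / 2 ^ j) ((B * m / e) * 2 ^ j)) +
        K * (A * e / 2 ^ M) := by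
  intro M
  induction M with
  | zero =>
    intro Q e he he' hm hf
    have h1 := S.basic he.le hm0 he' hm hf
    have h2 : K * e * m * b ≤ K * (A * e) := by
      have : K * e * m * b = K * e * (b * m) := by ring
      rw [this]
      have h3 := mul_le_mul_of_nonneg_left hb (mul_nonneg S.K0 he.le)
      nlinarith
    simpa using h1.trans h2
  | succ M ih =>
    intro Q e he he' hm hf
    obtain ⟨L, hL, hL1, b', hb', hL2⟩ := S.dec_en Q e he he'
    have he1 : En (Q \ L) e := S.en_mono _ _ _ sdiff_subset he'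
    have hm1 : Ms (Q \ L) m := S.ms_mono _ _ _ sdiff_subset hm
    have h1 : ∑ s ∈ Q \ L, a s ≤ K * min (A * e) (B * m / e) := by
      rcases le_total (A * e) (B * m / e) with h | h
      · rw [min_eq_left h]
        refine (S.basic he.le hm0 he1 hm1 (hf.sub sdiff_subset)).trans ?_
        have h3 := mul_le_mul_of_nonneg_left hb (mul_nonneg S.K0 he.le)
        nlinarith
      · rw [min_eq_right h]
        refine (S.basic he.le hm0 he1 hm1 hL2).trans ?_
        have h3 : K * e * m * b' = K * (m * (b' * e ^ 2) / e) := by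
          field_simp
        rw [h3]
        refine mul_le_mul_of_nonneg_left ?_ S.K0
        rw [mul_comm B m]
        exact div_le_div_of_nonneg_right (mul_le_mul_of_nonneg_left hb' hm0) he.le
    have h2 := ih L (e / 2) (by positivity) hL1 (S.ms_mono _ _ _ hL hm) (hf.sub hL)
    have h3 : ∑ s ∈ Q, a s = ∑ s ∈ Q \ L, a s + ∑ s ∈ L, a s := (sum_sdiff hL).symm
    rw [h3, sum_range_succ']
    have h4 : ∀ j : ℕ, min ((A * (e / 2)) / 2 ^ j) ((B * m / (e / 2)) * 2 ^ j) =
        min ((A * e) / 2 ^ (j + 1)) ((B * m / e) * 2 ^ (j + 1)) := by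
      intro j
      have e1 : (A * (e / 2)) / 2 ^ j = (A * e) / 2 ^ (j + 1) := by
        rw [pow_succ]
        field_simp
      have e2 : (B * m / (e / 2)) * 2 ^ j = (B * m / e) * 2 ^ (j + 1) := by
        rw [pow_succ]
        field_simp
      rw [e1, e2]
    have h5 : K * (A * (e / 2) / 2 ^ M) = K * (A * e / 2 ^ (M + 1)) := by
      rw [pow_succ]
      field_simp
    rw [sum_congr rfl fun j _ => h4 j, h5] at h2
    simp only [pow_zero, div_one, mul_one]
    rw [mul_add]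
    linarith

/-- the two geometric series -/
theorem sum_geo_min {p : ℝ} (hp : 0 ≤ p) : ∀ (M : ℕ) (x y : ℝ), 0 ≤ x → 0 ≤ y → x * y = p ^ 2 →
    (∑ j ∈ range M, min (x / 2 ^ j) (y * 2 ^ j) ≤ 2 * x) ∧
      (y ≤ p → ∑ j ∈ range M, min (x / 2 ^ j) (y * 2 ^ j) ≤ 3 * p - y) := by
  intro M
  induction M with
  | zero =>
    intro x y hx hy hxy
    constructor
    · simp [hx]
    · intro h
      simp only [range_zero, sum_empty]
      linarith
  | succ M ih =>
    intro x y hx hy hxy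
    have h1 := ih (x / 2) (y * 2) (by positivity) (by positivity) (by rw [← hxy]; ring)
    have h2 : ∑ j ∈ range (M + 1), min (x / 2 ^ j) (y * 2 ^ j) =
        (∑ j ∈ range M, min (x / 2 / 2 ^ j) (y * 2 * 2 ^ j)) + min x y := by
      rw [sum_range_succ']
      congr 1
      · refine sum_congr rfl fun j _ => ?_
        rw [pow_succ, div_div, mul_comm (2 : ℝ) (2 ^ j), mul_assoc y 2 (2 ^ j),
          mul_comm (2 : ℝ) (2 ^ j)]
      · simp
    rw [h2]
    constructor
    · have := min_le_left x y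
      linarith [h1.1]
    · intro hy1
      have h3 := min_le_right x y
      rcases le_or_gt (y * 2) p with h4 | h4
      · linarith [h1.2 h4]
      · have h5 : 0 < y := by linarith
        have h6 : x + 2 * y ≤ 3 * p := by
          have h7 : y * (x + 2 * y) ≤ y * (3 * p) := by nlinarith
          exact le_of_mul_le_mul_left h7 h5
        linarith [h1.1]

theorem sum_geo_min' {x y : ℝ} (hx : 0 ≤ x) (hy : 0 ≤ y) (M : ℕ) :
    ∑ j ∈ range M, min (x / 2 ^ j) (y * 2 ^ j) ≤ 3 * Real.sqrt (x * y) := by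
  have hp : 0 ≤ Real.sqrt (x * y) := Real.sqrt_nonneg _
  have hxy : x * y = Real.sqrt (x * y) ^ 2 := (Real.sq_sqrt (mul_nonneg hx hy)).symm
  obtain ⟨h1, h2⟩ := sum_geo_min hp M x y hx hy hxy
  rcases le_or_gt y (Real.sqrt (x * y)) with h | h
  · linarith [h2 h]
  · refine h1.trans ?_
    have h3 : x ≤ Real.sqrt (x * y) := by
      by_contra hc
      push Not at hc
      nlinarith
    linarith

/-- one mass layer -/
theorem Dat.layer (S : Dat Tree En Ms a A B K) {m b e : ℝ} (hm0 : 0 ≤ m) (hb : b * m ≤ A)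
    {Q : Finset α} (he : 0 < e) (hE : En Q e) (hM : Ms Q m) (hf : Cov Tree Q b) :
    ∑ s ∈ Q, a s ≤ 3 * K * Real.sqrt (A * B * m) := by
  have key : ∀ M : ℕ, ∑ s ∈ Q, a s ≤ 3 * K * Real.sqrt (A * B * m) +
      K * A * e * (1 / 2) ^ M := by
    intro M
    refine (S.en_chain hm0 hb M Q e he hE hM hf).trans ?_
    have h1 := sum_geo_min' (x := A * e) (y := B * m / e) (mul_nonneg S.A0 he.le)
      (div_nonneg (mul_nonneg S.B0 hm0) he.le) M
    have h2 : A * e * (B * m / e) = A * B * m := by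
      field_simp
    rw [h2] at h1
    have h3 := mul_le_mul_of_nonneg_left h1 S.K0
    have h4 : K * (A * e / 2 ^ M) = K * A * e * (1 / 2) ^ M := by
      rw [one_div, inv_pow]
      field_simp
    rw [h4]
    linarith
  have hlim : Filter.Tendsto (fun M : ℕ => 3 * K * Real.sqrt (A * B * m) +
      K * A * e * (1 / 2 : ℝ) ^ M) Filter.atTop
      (nhds (3 * K * Real.sqrt (A * B * m) + K * A * e * 0)) := by
    refine Filter.Tendsto.add tendsto_const_nhds (Filter.Tendsto.const_mul _ ?_)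
    exact tendsto_pow_atTop_nhds_zero_of_lt_one (by norm_num) (by norm_num)
  have h := ge_of_tendsto' hlim key
  simpa using h

theorem Dat.ms_chain (S : Dat Tree En Ms a A B K) {e : ℝ} (he : 0 < e) (len : α → ℝ)
    (hlen : ∀ s, Tree {s} (len s)) :
    ∀ (N : ℕ) (Q : Finset α) (m : ℝ), 0 < m → En Q e → Ms Q m →
      ∑ s ∈ Q, a s ≤ 3 * K * Real.sqrt (A * B * m) * (2 - 2 * (1 / 2) ^ N) +
        K * e * (m / 4 ^ N) * ∑ s ∈ Q, len s := by
  intro N
  induction N with
  | zero =>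
    intro Q m hm hE hM
    simp only [pow_zero, div_one, mul_one, sub_self, mul_zero, zero_add]
    rw [mul_sum]
    refine sum_le_sum fun s hs => ?_
    have h1 := S.tree {s} (len s) e m he.le hm.le (hlen s)
      (S.en_mono _ _ _ (singleton_subset_iff.2 hs) hE)
      (S.ms_mono _ _ _ (singleton_subset_iff.2 hs) hM)
    rwa [sum_singleton] at h1
  | succ N ih =>
    intro Q m hm hE hM
    obtain ⟨L, hL, hL1, b, hb, hL2⟩ := S.dec_ms Q m hm hM
    have h1 := S.layer hm.le hb he (S.en_mono _ _ _ (sdiff_subset (t := L)) hE)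
      (S.ms_mono _ _ _ sdiff_subset hM) hL2
    have h2 := ih L (m / 4) (by positivity) (S.en_mono _ _ _ hL hE) hL1
    have h3 : ∑ s ∈ Q, a s = ∑ s ∈ Q \ L, a s + ∑ s ∈ L, a s := (sum_sdiff hL).symm
    have h4 : Real.sqrt (A * B * (m / 4)) = Real.sqrt (A * B * m) / 2 := by
      have h5 : A * B * (m / 4) = A * B * m / 2 ^ 2 := by ring
      rw [h5, Real.sqrt_div' _ (by norm_num), Real.sqrt_sq (by norm_num)]
    have h6 : m / 4 / 4 ^ N = m / 4 ^ (N + 1) := by
      rw [pow_succ, div_div, mul_comm 4]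
    rw [h4, h6] at h2
    have h7 : K * e * (m / 4 ^ (N + 1)) * ∑ s ∈ L, len s ≤
        K * e * (m / 4 ^ (N + 1)) * ∑ s ∈ Q, len s := by
      refine mul_le_mul_of_nonneg_left ?_ (mul_nonneg (mul_nonneg S.K0 he.le) (by positivity))
      exact sum_le_sum_of_subset_of_nonneg hL fun s _ _ => S.tree_nonneg _ _ (hlen s)
    have h8 : 3 * K * Real.sqrt (A * B * m) * (2 - 2 * (1 / 2) ^ (N + 1)) =
        3 * K * Real.sqrt (A * B * m) +
          3 * K * (Real.sqrt (A * B * m) / 2) * (2 - 2 * (1 / 2) ^ N) := by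
      rw [pow_succ]
      ring
    rw [h3, h8]
    linarith

/-- **abstract model theorem in L2** -/
theorem Dat.sum_le (S : Dat Tree En Ms a A B K) (P : Finset α) {e m : ℝ} (he : 0 < e)
    (hm : 0 < m) (heP : En P e) (hmP : Ms P m) :
    ∑ s ∈ P, a s ≤ 6 * K * Real.sqrt (A * B * m) := by
  choose len hlen using S.tree_single
  have key : ∀ N : ℕ, ∑ s ∈ P, a s ≤ 6 * K * Real.sqrt (A * B * m) +
      K * e * m * (∑ s ∈ P, len s) * (1 / 4) ^ N := by
    intro N
    refine (S.ms_chain he len hlen N P m hm heP hmP).trans ?_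
    have h1 : K * e * (m / 4 ^ N) * ∑ s ∈ P, len s =
        K * e * m * (∑ s ∈ P, len s) * (1 / 4) ^ N := by
      rw [one_div, inv_pow]
      field_simp
    have h2 : 0 ≤ 3 * K * Real.sqrt (A * B * m) * (2 * (1 / 2) ^ N) :=
      mul_nonneg (mul_nonneg (mul_nonneg (by norm_num) S.K0) (Real.sqrt_nonneg _))
        (by positivity)
    rw [h1]
    linarith
  have hlim : Filter.Tendsto (fun N : ℕ => 6 * K * Real.sqrt (A * B * m) +
      K * e * m * (∑ s ∈ P, len s) * (1 / 4 : ℝ) ^ N) Filter.atTop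
      (nhds (6 * K * Real.sqrt (A * B * m) + K * e * m * (∑ s ∈ P, len s) * 0)) := by
    refine Filter.Tendsto.add tendsto_const_nhds (Filter.Tendsto.const_mul _ ?_)
    exact tendsto_pow_atTop_nhds_zero_of_lt_one (by norm_num) (by norm_num)
  have h := ge_of_tendsto' hlim key
  simpa using h

end Vale.Agent.P091.CH.H645
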