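import Vale.Agent.P091.CH.H645.ModT
import Vale.Agent.P091.CH.H539.Tree
import Vale.Agent.P091.CH.H106.En2
import Vale.Agent.P091.CH.H43.Ms
import Vale.Agent.P091.CH.H69.LightAll
import Vale.Agent.P091.CH.H66.LightN

/-!
# P091 / Carleson: P_MODT, P_LIGHT, P_LIGHTN, unconditional  (helper645)
-/

namespace Vale.Agent.P091.CH.H645

theorem p_MODT : P_MODT := modT H106.p_EN H43.p_MS H539.trt

theorem p_LIGHT : P_LIGHT := H69.pLIGHT_of_MODT p_MODT

theorem p_LIGHTN : P_LIGHTN := H66.lightN_of p_LIGHT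

end Vale.Agent.P091.CH.H645
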