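import Vale.Agent.P091.CH.Props
import Vale.Agent.P091.CH.H645.L2

/-!
# P091 / Carleson: the model theorem in L2 for tiles of small mass, generic N-side  (helper645)
-/

namespace Vale.Agent.P091.CH.H645

open Finset

/-- trees with the length of the top -/
def TreeP (T : Finset Tile) (l : ℝ) : Prop :=
  ∃ (kT jT : ℕ) (ξ : ℤ), IsTree T kT jT ξ ∧ l = ((2:ℝ) ^ kT)⁻¹

theorem good_sub {K : ℕ} {P Q : Finset Tile} (h : Good K P) (hQ : Q ⊆ P) : Good K Q :=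
  ⟨fun s hs t ht => h.1 s (hQ hs) t (hQ ht), fun s hs => h.2 s (hQ hs)⟩

theorem enLe_sub {a : Tile → ℂ} {P Q : Finset Tile} {e : ℝ} (h : EnLe a P e) (hQ : Q ⊆ P) :
    EnLe a Q e :=
  fun T hT => h T (hT.trans hQ)

theorem msLe_sub {K : ℕ} {E : Finset (X K)} {N : X K → ℤ} {P Q : Finset Tile} {μ : ℝ}
    (h : MsLe E N P μ) (hQ : Q ⊆ P) : MsLe E N Q μ :=
  fun s hs => h s (hQ hs)

theorem isTree_sub {T T' : Finset Tile} {kT jT : ℕ} {ξ : ℤ} (h : IsTree T kT jT ξ)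
    (hT : T' ⊆ T) : IsTree T' kT jT ξ :=
  fun s hs => h s (hT hs)

theorem isTree_single (s : Tile) : IsTree {s} s.k s.j (s.l * 2 ^ s.k) := by
  intro t ht
  rw [mem_singleton] at ht
  subst ht
  refine ⟨le_rfl, by simp, ?_⟩
  have : t.l * 2 ^ t.k / 2 ^ t.k = t.l := Int.mul_ediv_cancel _ (by positivity)
  rw [this]
  simp

/-- every finite tile set has finite energy -/
theorem exists_enLe {K : ℕ} {P : Finset Tile} (a : Tile → ℂ) (hP : ∀ s ∈ P, s.k ≤ K) :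
    ∃ e : ℝ, 0 < e ∧ EnLe a P e := by
  set S : ℝ := ∑ s ∈ P, s.len * ‖a s‖ ^ 2 with hS
  have hlen : ∀ s : Tile, 0 ≤ s.len := fun s => by unfold Tile.len; positivity
  have hS0 : 0 ≤ S := sum_nonneg fun s _ => mul_nonneg (hlen s) (sq_nonneg _)
  refine ⟨Real.sqrt (2 ^ K * S) + 1, by positivity, ?_⟩
  intro T hT kT jT ξ hlac
  rcases T.eq_empty_or_nonempty with h | ⟨s, hs⟩
  · subst h
    simp only [sum_empty]
    positivity
  have h1 : kT ≤ K := (hlac s hs).1.trans (hP s (hT hs))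
  have h2 : ∑ s ∈ T, s.len * ‖a s‖ ^ 2 ≤ S :=
    sum_le_sum_of_subset_of_nonneg hT fun s _ _ => mul_nonneg (hlen s) (sq_nonneg _)
  refine h2.trans ?_
  have h3 : (2:ℝ) ^ K * S ≤ (Real.sqrt (2 ^ K * S) + 1) ^ 2 := by
    have h4 := Real.sq_sqrt (show 0 ≤ (2:ℝ) ^ K * S by positivity)
    nlinarith [Real.sqrt_nonneg ((2:ℝ) ^ K * S)]
  have h4 : ((2:ℝ) ^ K)⁻¹ ≤ ((2:ℝ) ^ kT)⁻¹ :=
    inv_anti₀ (by positivity) (pow_le_pow_right₀ (by norm_num) h1)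
  calc S = (2:ℝ) ^ K * S * ((2:ℝ) ^ K)⁻¹ := by field_simp
    _ ≤ (Real.sqrt (2 ^ K * S) + 1) ^ 2 * ((2:ℝ) ^ kT)⁻¹ :=
        mul_le_mul h3 h4 (by positivity) (sq_nonneg _)

/-- from a split of the architect to a cover -/
theorem cov_of_splits {F : Forest} {P L : Finset Tile} (h : F.Splits P L) :
    Cov TreeP (P \ L) F.tot := by
  refine ⟨F.ι, F.T, fun i => ((2:ℝ) ^ (F.kT i))⁻¹, ?_, ?_, le_rfl⟩
  · intro i hi
    exact ⟨F.kT i, F.jT i, F.ξ i, h.tree i hi, rfl⟩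
  · intro s hs
    rw [mem_sdiff] at hs
    rcases h.cover s hs.1 with h1 | h1
    · exact absurd h1 hs.2
    · exact h1

/-- `b : Tile → ℝ` satisfies the tree estimate with constant `CT` -/
def TreeEst (K : ℕ) (E : Finset (X K)) (N : X K → ℤ) (a : Tile → ℂ) (b : Tile → ℝ)
    (CT : ℝ) : Prop :=
  ∀ (T : Finset Tile) (kT jT : ℕ) (ξ : ℤ) (e μ : ℝ), 0 ≤ e → 0 ≤ μ →
    Good K T → IsTree T kT jT ξ → EnLe a T e → MsLe E N T μ →
      ∑ s ∈ T, s.len * ‖a s‖ * b s ≤ CT * e * μ * ((2:ℝ) ^ kT)⁻¹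

/-- **MODEL in L2, generic N-side**: tiles of mass `≤ μ` -/
theorem mod_gen (hEN : P_EN) (hMS : P_MS) : ∀ B : ℝ, ∃ C : ℝ, 0 ≤ C ∧ ∀ m, IsSym B m →
    ∀ (K r : ℕ), r < 8 → ∀ (f : X K → ℂ) (N : X K → ℤ) (E : Finset (X K)) (b : Tile → ℝ)
      (CT : ℝ), 0 ≤ CT → (∀ s, 0 ≤ b s) → TreeEst K E N (co m r f) b CT →
      ∀ (P : Finset Tile) (μ : ℝ), 0 ≤ μ → Good K P → MsLe E N P μ →
        ∑ s ∈ P, s.len * ‖co m r f s‖ * b s
          ≤ C * CT * Real.sqrt (μ * ave (fun x => ‖f x‖ ^ 2) * mu E) := by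
  intro B
  obtain ⟨C1, hC1⟩ := hEN B
  obtain ⟨C2, hC2⟩ := hMS
  refine ⟨6 * Real.sqrt (max C1 0 * max C2 0), by positivity, ?_⟩
  intro m hm K r hr f N E b CT hCT hb htree P μ hμ hP hPm
  have hlen : ∀ s : Tile, 0 ≤ s.len := fun s => by unfold Tile.len; positivity
  have hA0 : 0 ≤ mu E := by unfold mu; positivity
  have hB0 : 0 ≤ ave (fun x => ‖f x‖ ^ 2) := by
    unfold ave
    exact div_nonneg (sum_nonneg fun x _ => sq_nonneg _) (by positivity)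
  obtain ⟨e, he, heP⟩ := exists_enLe (K := K) (co m r f) (P := P)
    (fun s hs => by have := (hP.2 s hs).1; omega)
  have hsing : ∀ s ∈ P, s.len * ‖co m r f s‖ * b s ≤ CT * e * μ * ((2:ℝ) ^ s.k)⁻¹ := by
    intro s hs
    have hsub : ({s} : Finset Tile) ⊆ P := singleton_subset_iff.2 hs
    have h := htree {s} s.k s.j (s.l * 2 ^ s.k) e μ he.le hμ (good_sub hP hsub)
      (isTree_single s) (enLe_sub heP hsub) (msLe_sub hPm hsub)
    simpa using h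
  rcases hμ.eq_or_lt with h0 | h0
  · have h1 : ∑ s ∈ P, s.len * ‖co m r f s‖ * b s ≤ 0 := by
      refine sum_nonpos fun s hs => ?_
      have := hsing s hs
      rw [← h0] at this
      simpa using this
    refine h1.trans ?_
    positivity
  have S : Dat TreeP (fun Q e => Good K Q ∧ EnLe (co m r f) Q e)
      (fun Q m => Good K Q ∧ MsLe E N Q m) (fun s => s.len * ‖co m r f s‖ * b s)
      (max C2 0 * mu E) (max C1 0 * ave (fun x => ‖f x‖ ^ 2)) CT := by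
    refine ⟨hCT, by positivity, by positivity, ?_, ?_, ?_, ?_, ?_, ?_, ?_, ?_, ?_⟩
    · intro s
      exact mul_nonneg (mul_nonneg (hlen s) (norm_nonneg _)) (hb s)
    · intro Q Q' e hQ h
      exact ⟨good_sub h.1 hQ, enLe_sub h.2 hQ⟩
    · intro Q Q' m hQ h
      exact ⟨good_sub h.1 hQ, msLe_sub h.2 hQ⟩
    · rintro T T' l ⟨kT, jT, ξ, h, rfl⟩ hT
      exact ⟨kT, jT, ξ, isTree_sub h hT, rfl⟩
    · rintro T l ⟨kT, jT, ξ, h, rfl⟩
      positivity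
    · intro s
      exact ⟨_, s.k, s.j, s.l * 2 ^ s.k, isTree_single s, rfl⟩
    · rintro T l e m he hm ⟨kT, jT, ξ, h, rfl⟩ hE hM
      exact htree T kT jT ξ e m he hm hE.1 h hE.2 hM.2
    · intro Q m hm0 hM
      obtain ⟨L, F, hF, hL, htot⟩ := hC2 K E N Q m hM.1 hm0 hM.2
      refine ⟨L, hF.light, ⟨good_sub hM.1 hF.light, hL⟩, F.tot, ?_, cov_of_splits hF⟩
      exact htot.trans (mul_le_mul_of_nonneg_right (le_max_left _ _) hA0)
    · intro Q e he0 hE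
      obtain ⟨L, F, hF, hL, htot⟩ := hC1 m hm K r hr f Q e hE.1 he0 hE.2
      refine ⟨L, hF.light, ⟨good_sub hE.1 hF.light, hL⟩, F.tot, ?_, cov_of_splits hF⟩
      exact htot.trans (mul_le_mul_of_nonneg_right (le_max_left _ _) hB0)
  have h1 := S.sum_le P he h0 ⟨hP, heP⟩ ⟨hP, hPm⟩
  refine h1.trans (le_of_eq ?_)
  have h2 : max C2 0 * mu E * (max C1 0 * ave (fun x => ‖f x‖ ^ 2)) * μ =
      (max C1 0 * max C2 0) * (μ * ave (fun x => ‖f x‖ ^ 2) * mu E) := by ring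
  rw [h2, Real.sqrt_mul (by positivity)]
  ring

/-- **MODEL in L2**: the untruncated form -/
theorem mod_l2 (hEN : P_EN) (hMS : P_MS) (hTR : P_TR) : ∀ B : ℝ, ∃ C : ℝ, 0 ≤ C ∧
    ∀ m mt, IsSym B m → IsSym B mt → ∀ (K r : ℕ), r < 8 →
      ∀ (f g : X K → ℂ) (N : X K → ℤ) (E : Finset (X K)) (P : Finset Tile) (μ : ℝ), 0 ≤ μ →
        (∀ x, ‖g x‖ ≤ if x ∈ E then 1 else 0) → Good K P → MsLe E N P μ →
          ∑ s ∈ P, s.len * ‖co m r f s‖ * ‖bco mt r g N s‖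
            ≤ C * Real.sqrt (μ * ave (fun x => ‖f x‖ ^ 2) * mu E) := by
  intro B
  obtain ⟨C1, hC1, h1⟩ := mod_gen hEN hMS B
  obtain ⟨C2, h2⟩ := hTR B
  refine ⟨C1 * max C2 0, by positivity, ?_⟩
  intro m mt hm hmt K r hr f g N E P μ hμ hg hP hPm
  refine h1 m hm K r hr f N E (fun s => ‖bco mt r g N s‖) (max C2 0) (le_max_right _ _)
    (fun s => norm_nonneg _) ?_ P μ hμ hP hPm
  intro T kT jT ξ e ν he hν hT htree hE hM
  refine (h2 m mt hm hmt K r hr f g N E T kT jT ξ e ν he hν hg hT htree hE hM).trans ?_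
  have h3 : 0 ≤ e * ν * ((2:ℝ) ^ kT)⁻¹ := by positivity
  have h4 := mul_le_mul_of_nonneg_right (le_max_left C2 0) h3
  calc C2 * e * ν * ((2:ℝ) ^ kT)⁻¹ = C2 * (e * ν * ((2:ℝ) ^ kT)⁻¹) := by ring
    _ ≤ max C2 0 * (e * ν * ((2:ℝ) ^ kT)⁻¹) := h4
    _ = max C2 0 * e * ν * ((2:ℝ) ^ kT)⁻¹ := by ring

end Vale.Agent.P091.CH.H645
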