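import Vale.Agent.P091.CH.Light
import Vale.Agent.P091.CH.H645.Mod

/-!
# P091 / Carleson: P_MODT from P_EN, P_MS, P_TRT  (helper645)
-/

namespace Vale.Agent.P091.CH.H645

open Finset

/-- splitting into the 80 sparse classes -/
theorem sum_classes {K : ℕ} {P : Finset Tile} (hP : ∀ s ∈ P, s.Ok K) (F : Tile → ℝ) {R : ℝ}
    (h : ∀ Q ⊆ P, Good K Q → ∑ s ∈ Q, F s ≤ R) : ∑ s ∈ P, F s ≤ 80 * R := by
  have hmap : ∀ s ∈ P, ((s.k % 5, s.l % 16) : ℕ × ℤ) ∈ (range 5 ×ˢ Ico (0:ℤ) 16) := by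
    intro s _
    rw [mem_product]
    refine ⟨mem_range.2 (Nat.mod_lt _ (by norm_num)), mem_Ico.2 ⟨?_, ?_⟩⟩
    · exact Int.emod_nonneg _ (by norm_num)
    · exact Int.emod_lt_of_pos _ (by norm_num)
  rw [← sum_fiberwise_of_maps_to hmap]
  have h1 : ∀ y ∈ (range 5 ×ˢ Ico (0:ℤ) 16),
      ∑ s ∈ P with ((s.k % 5, s.l % 16) : ℕ × ℤ) = y, F s ≤ R := by
    intro y _
    refine h _ (filter_subset _ _) ⟨?_, ?_⟩
    · intro s hs t ht
      have h2 := (mem_filter.1 hs).2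
      have h3 := (mem_filter.1 ht).2
      rw [← h3, Prod.mk.injEq] at h2
      exact h2
    · intro s hs
      exact hP s (mem_filter.1 hs).1
  refine (sum_le_sum h1).trans ?_
  rw [sum_const, nsmul_eq_mul]
  have h2 : (range 5 ×ˢ Ico (0:ℤ) 16).card = 80 := by simp
  rw [h2]
  norm_num

/-- **P_MODT** -/
theorem modT (hEN : P_EN) (hMS : P_MS) (hTR : P_TRT) : P_MODT := by
  intro B
  obtain ⟨C1, hC1, h1⟩ := mod_gen hEN hMS B
  obtain ⟨C2, h2⟩ := hTR B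
  refine ⟨80 * (C1 * max C2 0), ?_⟩
  intro m mt hm hmt K r hr f g N κ E P μ hμ hg hP hPm
  have hA0 : 0 ≤ mu E := by unfold mu; positivity
  have hB0 : 0 ≤ ave (fun x => ‖f x‖ ^ 2) := by
    unfold ave
    exact div_nonneg (sum_nonneg fun x _ => sq_nonneg _) (by positivity)
  have h3 : ∑ s ∈ P, s.len * ‖co m r f s‖ * ‖bcoT mt r g N κ s‖ ≤
      80 * (C1 * max C2 0 * Real.sqrt (μ * ave (fun x => ‖f x‖ ^ 2) * mu E)) := by
    refine sum_classes hP _ ?_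
    intro Q hQ hQg
    refine h1 m hm K r hr f N E (fun s => ‖bcoT mt r g N κ s‖) (max C2 0) (le_max_right _ _)
      (fun s => norm_nonneg _) ?_ Q μ hμ.le hQg (msLe_sub hPm hQ)
    intro T kT jT ξ e ν he hν hT htree hE hM
    refine (h2 m mt hm hmt K r hr f g N κ E T kT jT ξ e ν he hν hg hT htree hE hM).trans ?_
    have h4 : 0 ≤ e * ν * ((2:ℝ) ^ kT)⁻¹ := by positivity
    have h5 := mul_le_mul_of_nonneg_right (le_max_left C2 0) h4
    calc C2 * e * ν * ((2:ℝ) ^ kT)⁻¹ = C2 * (e * ν * ((2:ℝ) ^ kT)⁻¹) := by ring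
      _ ≤ max C2 0 * (e * ν * ((2:ℝ) ^ kT)⁻¹) := h5
      _ = max C2 0 * e * ν * ((2:ℝ) ^ kT)⁻¹ := by ring
  refine h3.trans (le_of_eq ?_)
  rw [Real.sqrt_mul (mul_nonneg hμ.le hB0), Real.sqrt_mul hμ.le]
  ring

end Vale.Agent.P091.CH.H645
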